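import Crest.Agent.Lib.QEnt.Basic

/-!
A Birman-Schwinger type eigenvalue counting inequality.
-/

set_option autoImplicit false

namespace Crest.Agent.Lib.QEnt

open Matrix
open scoped ComplexOrder

theorem exists_supported_kernel {e κ : Type*} [Fintype e] [Fintype κ] [DecidableEq e]
    [DecidableEq κ] (T : Matrix κ e ℂ) (S : Finset e) (S' : Finset κ) (h : S'.card < S.card) :
    ∃ α : e → ℂ, α ≠ 0 ∧ (∀ i, i ∉ S → α i = 0) ∧ ∀ j ∈ S', (T *ᵥ α) j = 0 := by
  let T' : Matrix S' S ℂ := T.submatrix Subtype.val Subtype.val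
  have hk : LinearMap.ker (Matrix.mulVecLin T') ≠ ⊥ := by
    apply LinearMap.ker_ne_bot_of_finrank_lt
    simpa using h
  obtain ⟨β, hβ, hβ0⟩ := Submodule.exists_mem_ne_zero_of_ne_bot hk
  refine ⟨fun i => if hi : i ∈ S then β ⟨i, hi⟩ else 0, ?_, ?_, ?_⟩
  · intro h0
    apply hβ0
    funext i
    have := congrFun h0 i.1
    simpa [i.2] using this
  · intro i hi
    simp [hi]
  · intro j hj
    have h1 := congrFun (LinearMap.mem_ker.1 hβ) ⟨j, hj⟩
    simp only [mulVecLin_apply, Pi.zero_apply] at h1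
    refine Eq.trans ?_ h1
    simp only [mulVec, dotProduct, T', submatrix_apply]
    rw [← Finset.sum_subset (f := fun i => T j i * (if hi : i ∈ S then β ⟨i, hi⟩ else 0))
      (Finset.subset_univ S) (fun i _ hi => by simp [hi]), ← Finset.sum_coe_sort]
    refine Finset.sum_congr rfl fun i _ => ?_
    simp [i.2]

/-- The real quadratic form of a matrix. -/
noncomputable def qf {n : Type*} [Fintype n] (A : Matrix n n ℂ) (w : n → ℂ) : ℝ :=
  (star w ⬝ᵥ (A *ᵥ w)).re

theorem qf_nonneg {n : Type*} [Fintype n] {A : Matrix n n ℂ} (hA : A.PosSemidef) (w : n → ℂ) :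
    0 ≤ qf A w := by
  have := hA.dotProduct_mulVec_nonneg w
  exact (Complex.nonneg_iff.1 this).1

theorem qf_mulVec {n m : Type*} [Fintype n] [Fintype m] (A : Matrix n n ℂ) (B : Matrix n m ℂ)
    (w : m → ℂ) : qf A (B *ᵥ w) = qf (Bᴴ * A * B) w := by
  unfold qf
  rw [star_mulVec, ← dotProduct_mulVec, mulVec_mulVec, mulVec_mulVec]

theorem qf_diagonal {n : Type*} [Fintype n] [DecidableEq n] (l : n → ℝ) (w : n → ℂ) :
    qf (diagonal fun i => (l i : ℂ)) w = ∑ i, l i * Complex.normSq (w i) := by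
  unfold qf
  simp only [dotProduct, mulVec_diagonal, Complex.re_sum, Pi.star_apply]
  refine Finset.sum_congr rfl fun i _ => ?_
  have : star (w i) * ((l i : ℂ) * w i) = ((l i * Complex.normSq (w i) : ℝ) : ℂ) := by
    rw [Complex.ofReal_mul, Complex.normSq_eq_conj_mul_self]
    simp only [Complex.star_def]; ring
  rw [this, Complex.ofReal_re]

theorem qf_one {n : Type*} [Fintype n] [DecidableEq n] (w : n → ℂ) :
    qf (1 : Matrix n n ℂ) w = ∑ i, Complex.normSq (w i) := by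
  have := qf_diagonal (fun _ : n => (1 : ℝ)) w
  simpa using this

theorem qf_add {n : Type*} [Fintype n] (A B : Matrix n n ℂ) (w : n → ℂ) :
    qf (A + B) w = qf A w + qf B w := by
  unfold qf; rw [add_mulVec, dotProduct_add, Complex.add_re]

theorem qf_sub {n : Type*} [Fintype n] (A B : Matrix n n ℂ) (w : n → ℂ) :
    qf (A - B) w = qf A w - qf B w := by
  unfold qf; rw [sub_mulVec, dotProduct_sub, Complex.sub_re]

theorem qf_smul {n : Type*} [Fintype n] (A : Matrix n n ℂ) (t : ℝ) (w : n → ℂ) :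
    qf ((t : ℂ) • A) w = t * qf A w := by
  unfold qf; rw [smul_mulVec, dotProduct_smul]; simp

/-- The variational lower bound for the quadratic form of an inverse. -/
theorem qf_inv_ge {n : Type*} [Fintype n] [DecidableEq n] {Z : Matrix n n ℂ} (hZ : Z.PosDef)
    (y w : n → ℂ) (s : ℝ) :
    2 * s * (star w ⬝ᵥ y).re - s ^ 2 * qf Z w ≤ qf Z⁻¹ y := by
  have h0 := qf_nonneg hZ.inv.posSemidef (y - (s : ℂ) • (Z *ᵥ w))
  have hu : IsUnit Z.det := (Matrix.isUnit_iff_isUnit_det Z).1 hZ.isUnit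
  have e1 : Z⁻¹ *ᵥ (Z *ᵥ w) = w := by rw [mulVec_mulVec, nonsing_inv_mul _ hu, one_mulVec]
  have e2 : ∀ v : n → ℂ, star (Z *ᵥ w) ⬝ᵥ (Z⁻¹ *ᵥ v) = star w ⬝ᵥ v := by
    intro v
    rw [star_mulVec, ← dotProduct_mulVec, mulVec_mulVec, hZ.isHermitian.eq,
      mul_nonsing_inv _ hu, one_mulVec]
  have e3 : (star y ⬝ᵥ w).re = (star w ⬝ᵥ y).re := by
    rw [star_dotProduct]; simp
  unfold qf at h0 ⊢
  rw [mulVec_sub, star_sub, sub_dotProduct, star_smul, smul_dotProduct, ← mulVec_sub, e2,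
    mulVec_sub, mulVec_smul, e1, dotProduct_sub, dotProduct_sub, dotProduct_smul,
    dotProduct_smul] at h0
  simp only [Complex.star_def, Complex.conj_ofReal, smul_eq_mul, Complex.sub_re,
    Complex.re_ofReal_mul] at h0
  rw [e3] at h0
  nlinarith

/-- Eigenvalue counting: the eigenvalues of `a aᴴ / π - C` above `t` are at most as many as the
eigenvalues of `aᴴ (t + C)⁻¹ a` above `π`. -/
theorem card_eig_le {e κ : Type*} [Fintype e] [Fintype κ] [DecidableEq e] [DecidableEq κ]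
    (a : Matrix e κ ℂ) {C : Matrix e e ℂ} {t π : ℝ} (hπ : 0 < π)
    (hZ : ((t : ℂ) • (1 : Matrix e e ℂ) + C).PosDef)
    {U : Matrix e e ℂ} {h : e → ℝ} (hH : IsDiag (((π⁻¹ : ℝ) : ℂ) • (a * aᴴ) - C) U h)
    {V : Matrix κ κ ℂ} {p : κ → ℝ}
    (hP : IsDiag (aᴴ * ((t : ℂ) • (1 : Matrix e e ℂ) + C)⁻¹ * a) V p) :
    (Finset.univ.filter fun i => t < h i).card ≤ (Finset.univ.filter fun j => π < p j).card := by
  by_contra hlt
  push Not at hlt
  obtain ⟨α, hα0, hαS, hαT⟩ := exists_supported_kernel (Vᴴ * aᴴ * U) _ _ hlt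
  set Z := (t : ℂ) • (1 : Matrix e e ℂ) + C with hZdef
  set w := U *ᵥ α with hw
  set φ := aᴴ *ᵥ w with hφ
  set β := Vᴴ *ᵥ φ with hβ
  have hβ' : β = (Vᴴ * aᴴ * U) *ᵥ α := by
    rw [hβ, hφ, hw, mulVec_mulVec, mulVec_mulVec]
  have hφβ : φ = V *ᵥ β := by rw [hβ, mulVec_mulVec, hP.uni', one_mulVec]
  -- the form of `H` on `w`
  have h1 : qf (((π⁻¹ : ℝ) : ℂ) • (a * aᴴ) - C) w = ∑ i, h i * Complex.normSq (α i) := by
    rw [hw, qf_mulVec, hH.conj, qf_diagonal]
  have h2 : qf 1 w = ∑ i, Complex.normSq (α i) := by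
    rw [hw, qf_mulVec, Matrix.mul_one, hH.uni, qf_one]
  have h3 : t * qf 1 w < qf (((π⁻¹ : ℝ) : ℂ) • (a * aᴴ) - C) w := by
    rw [h1, h2, Finset.mul_sum]
    obtain ⟨i0, hi0⟩ := Function.ne_iff.1 hα0
    refine Finset.sum_lt_sum (fun i _ => ?_) ⟨i0, Finset.mem_univ _, ?_⟩
    · by_cases hi : t < h i
      · exact mul_le_mul_of_nonneg_right hi.le (Complex.normSq_nonneg _)
      · rw [hαS i (by simpa using hi)]; simp
    · have hi : t < h i0 := by
        by_contra hi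
        exact hi0 (hαS i0 (by simpa using hi))
      exact mul_lt_mul_of_pos_right hi (Complex.normSq_pos.2 hi0)
  have h4 : qf (a * aᴴ) w = qf 1 φ := by
    rw [hφ, qf_mulVec (1 : Matrix κ κ ℂ), conjTranspose_conjTranspose, Matrix.mul_one]
  have h5 : qf Z w = t * qf 1 w + qf C w := by rw [hZdef, qf_add, qf_smul]
  rw [qf_sub, qf_smul, h4] at h3
  have h6 : qf Z⁻¹ (a *ᵥ φ) ≤ π * qf 1 φ := by
    rw [qf_mulVec, hφβ, qf_mulVec, hP.conj, qf_diagonal, qf_mulVec, Matrix.mul_one, hP.uni,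
      qf_one, Finset.mul_sum]
    refine Finset.sum_le_sum fun j _ => ?_
    by_cases hj : π < p j
    · rw [hβ', hαT j (by simpa using hj)]; simp
    · exact mul_le_mul_of_nonneg_right (not_lt.1 hj) (Complex.normSq_nonneg _)
  have h7 := qf_inv_ge hZ (a *ᵥ φ) w π
  have h8 : (star w ⬝ᵥ (a *ᵥ φ)).re = qf 1 φ := by
    unfold qf
    rw [one_mulVec]
    conv_rhs => rw [hφ, star_mulVec, conjTranspose_conjTranspose, ← dotProduct_mulVec]
  rw [h8] at h7
  have h9 : π * qf Z w < qf 1 φ := by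
    have : qf Z w < π⁻¹ * qf 1 φ := by linarith
    calc π * qf Z w < π * (π⁻¹ * qf 1 φ) := mul_lt_mul_of_pos_left this hπ
      _ = qf 1 φ := by field_simp
  nlinarith

end Crest.Agent.Lib.QEnt
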