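import Crest.Agent.Lib.QEnt.Basic

/-!
Concavity, subadditivity and additivity of the von Neumann entropy, in terms of
`N A = tr A log A`.
-/

set_option autoImplicit false

namespace Crest.Agent.Lib.QEnt

open Matrix
open scoped ComplexOrder Kronecker

variable {n : Type*} [Fintype n] [DecidableEq n]

theorem gibbs_aux {a s α S : ℝ} (ha : 0 ≤ a) (hs : a ≤ s) (hα : a ≤ α) (hS : α ≤ S) :
    a * (Real.log s + Real.log α - Real.log S) - a * Real.log a ≤ s * α / S - a := by
  rcases ha.eq_or_lt with h | h
  · subst h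
    have : 0 ≤ s * α / S := div_nonneg (mul_nonneg hs hα) (hα.trans hS)
    simpa using this
  · have hs0 : 0 < s := h.trans_le hs
    have hα0 : 0 < α := h.trans_le hα
    have hS0 : 0 < S := hα0.trans_le hS
    have h1 : Real.log (s * α / S / a) ≤ s * α / S / a - 1 :=
      Real.log_le_sub_one_of_pos (by positivity)
    rw [Real.log_div (by positivity) h.ne', Real.log_div (by positivity) hS0.ne',
      Real.log_mul hs0.ne' hα0.ne'] at h1
    have h2 := mul_le_mul_of_nonneg_left h1 h.le
    have h3 : a * (s * α / S / a - 1) = s * α / S - a := by field_simp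
    rw [h3] at h2
    linarith

theorem logsum_two {ι : Type*} [Fintype ι] (a b : ι → ℝ) (ha : ∀ i, 0 ≤ a i) (hb : ∀ i, 0 ≤ b i) :
    ∑ i, (a i + b i) * Real.log (a i + b i) - ∑ i, a i * Real.log (a i)
        - ∑ i, b i * Real.log (b i) ≤
      (∑ i, a i + ∑ i, b i) * Real.log (∑ i, a i + ∑ i, b i)
        - (∑ i, a i) * Real.log (∑ i, a i) - (∑ i, b i) * Real.log (∑ i, b i) := by
  set α := ∑ i, a i with hα
  set β := ∑ i, b i with hβ
  have hα0 : 0 ≤ α := Finset.sum_nonneg fun i _ => ha i
  have hβ0 : 0 ≤ β := Finset.sum_nonneg fun i _ => hb i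
  have key : ∀ i, (a i + b i) * Real.log (a i + b i) - a i * Real.log (a i) - b i * Real.log (b i)
      ≤ (a i + b i) * Real.log (α + β) - a i * Real.log α - b i * Real.log β := by
    intro i
    have h1 : a i ≤ α := Finset.single_le_sum (f := a) (fun i _ => ha i) (Finset.mem_univ i)
    have h2 : b i ≤ β := Finset.single_le_sum (f := b) (fun i _ => hb i) (Finset.mem_univ i)
    have e1 := gibbs_aux (s := a i + b i) (S := α + β) (ha i) (by linarith [hb i]) h1 (by linarith)
    have e2 := gibbs_aux (s := a i + b i) (S := α + β) (hb i) (by linarith [ha i]) h2 (by linarith)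
    have e3 : (a i + b i) * α / (α + β) + (a i + b i) * β / (α + β) ≤ a i + b i := by
      rw [← add_div, ← mul_add]
      rcases (add_nonneg hα0 hβ0).eq_or_lt with h | h
      · rw [← h]; simp only [div_zero]; linarith [ha i, hb i]
      · rw [mul_div_assoc, div_self h.ne', mul_one]
    nlinarith
  have := Finset.sum_le_sum (s := Finset.univ) fun i _ => key i
  simp only [Finset.sum_sub_distrib] at this
  rw [← Finset.sum_mul, ← Finset.sum_mul, ← Finset.sum_mul, Finset.sum_add_distrib] at this
  exact this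

/-- `tr A log A - tr A log tr A`, minus the trace times the entropy of the normalised matrix. -/
noncomputable def R (A : Matrix n n ℂ) : ℝ := N A - A.trace.re * Real.log A.trace.re

theorem N_smul {A : Matrix n n ℂ} (hA : A.IsHermitian) (s : ℝ) :
    N ((s : ℂ) • A) = s * N A + s * Real.log s * A.trace.re := by
  obtain ⟨U, l, h⟩ := exists_isDiag hA
  rw [(h.smul s).N, h.N, h.trace_re, Finset.mul_sum, Finset.mul_sum, ← Finset.sum_add_distrib]
  refine Finset.sum_congr rfl fun i _ => ?_
  by_cases hs : s = 0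
  · simp [hs]
  by_cases hl : l i = 0
  · simp [hl]
  rw [Real.log_mul hs hl]; ring

omit [DecidableEq n] in
theorem trace_smul_re (A : Matrix n n ℂ) (s : ℝ) : ((s : ℂ) • A).trace.re = s * A.trace.re := by
  simp [trace_smul]

theorem R_smul {A : Matrix n n ℂ} (hA : A.IsHermitian) (s : ℝ) :
    R ((s : ℂ) • A) = s * R A := by
  unfold R
  rw [N_smul hA, trace_smul_re]
  by_cases hs : s = 0
  · simp [hs]
  by_cases hl : A.trace.re = 0
  · simp [hl]
  rw [Real.log_mul hs hl]; ring

/-- Concavity of the entropy. -/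
theorem R_add_le {A B : Matrix n n ℂ} (hA : A.PosSemidef) (hB : B.PosSemidef) :
    R (A + B) ≤ R A + R B := by
  obtain ⟨V, l, h⟩ := exists_isDiag (hA.add hB).isHermitian
  have h1 := sum_dg_log_le_N hA h.uni
  have h2 := sum_dg_log_le_N hB h.uni
  have h3 := logsum_two (dg V A) (dg V B) (dg_nonneg V hA) (dg_nonneg V hB)
  rw [sum_dg h.uni, sum_dg h.uni] at h3
  have h4 : N (A + B) = ∑ i, (dg V A i + dg V B i) * Real.log (dg V A i + dg V B i) := by
    rw [h.N]
    refine Finset.sum_congr rfl fun i _ => ?_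
    rw [← dg_add, h.dg_self]
  unfold R
  rw [h4, trace_add, Complex.add_re]
  linarith

/-- Subadditivity of the entropy for a system with a classical-looking first qubit. -/
theorem N_fromBlocks_ge {A X Y B : Matrix n n ℂ} (hM : (fromBlocks A X Y B).PosSemidef) :
    N (A + B) - (A.trace.re + B.trace.re) * Real.log (A.trace.re + B.trace.re)
      + A.trace.re * Real.log A.trace.re + B.trace.re * Real.log B.trace.re
      ≤ N (fromBlocks A X Y B) := by
  have hA : A.PosSemidef := by
    have := hM.submatrix Sum.inl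
    convert this using 1
    ext i j; simp
  have hB : B.PosSemidef := by
    have := hM.submatrix Sum.inr
    convert this using 1
    ext i j; simp
  obtain ⟨V, l, h⟩ := exists_isDiag (hA.add hB).isHermitian
  have hW : (fromBlocks V 0 0 V)ᴴ * (fromBlocks V 0 0 V) = 1 := by
    rw [fromBlocks_conjTranspose, fromBlocks_multiply]
    simp [h.uni]
  have h1 := sum_dg_log_le_N hM hW
  have hl : ∀ i, dg (fromBlocks V 0 0 V) (fromBlocks A X Y B) (Sum.inl i) = dg V A i := by
    intro i
    unfold dg
    rw [fromBlocks_conjTranspose, fromBlocks_multiply, fromBlocks_multiply]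
    simp
  have hr : ∀ i, dg (fromBlocks V 0 0 V) (fromBlocks A X Y B) (Sum.inr i) = dg V B i := by
    intro i
    unfold dg
    rw [fromBlocks_conjTranspose, fromBlocks_multiply, fromBlocks_multiply]
    simp
  rw [Fintype.sum_sum_type] at h1
  simp only [hl, hr] at h1
  have h3 := logsum_two (dg V A) (dg V B) (dg_nonneg V hA) (dg_nonneg V hB)
  rw [sum_dg h.uni, sum_dg h.uni] at h3
  have h4 : N (A + B) = ∑ i, (dg V A i + dg V B i) * Real.log (dg V A i + dg V B i) := by
    rw [h.N]
    refine Finset.sum_congr rfl fun i _ => ?_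
    rw [← dg_add, h.dg_self]
  rw [h4]
  linarith

theorem IsDiag.kronecker {m : Type*} [Fintype m] [DecidableEq m] {A U : Matrix n n ℂ} {l : n → ℝ}
    (h : IsDiag A U l) {B V : Matrix m m ℂ} {k : m → ℝ} (h' : IsDiag B V k) :
    IsDiag (A ⊗ₖ B) (U ⊗ₖ V) (fun p => l p.1 * k p.2) := by
  refine ⟨?_, ?_⟩
  · rw [conjTranspose_kronecker, ← mul_kronecker_mul, h.uni, h'.uni, one_kronecker_one]
  · conv_lhs => rw [h.eq, h'.eq]
    rw [conjTranspose_kronecker, mul_kronecker_mul, mul_kronecker_mul, diagonal_kronecker_diagonal]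
    simp

theorem N_kronecker {m : Type*} [Fintype m] [DecidableEq m] {A : Matrix n n ℂ}
    (hA : A.IsHermitian) {B : Matrix m m ℂ} (hB : B.IsHermitian) :
    N (A ⊗ₖ B) = N A * B.trace.re + A.trace.re * N B := by
  obtain ⟨U, l, h⟩ := exists_isDiag hA
  obtain ⟨V, k, h'⟩ := exists_isDiag hB
  rw [(h.kronecker h').N, h.N, h'.N, h.trace_re, h'.trace_re, Fintype.sum_prod_type,
    Finset.sum_mul_sum, Finset.sum_mul_sum, ← Finset.sum_add_distrib]
  refine Finset.sum_congr rfl fun i _ => ?_
  rw [← Finset.sum_add_distrib]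
  refine Finset.sum_congr rfl fun j _ => ?_
  by_cases h1 : l i = 0
  · simp [h1]
  by_cases h2 : k j = 0
  · simp [h2]
  rw [Real.log_mul h1 h2]; ring

/-- A positive semidefinite matrix is a Gram matrix. -/
theorem exists_sqrt {A : Matrix n n ℂ} (hA : A.PosSemidef) : ∃ v : Matrix n n ℂ, A = v * vᴴ := by
  obtain ⟨U, l, h⟩ := exists_isDiag hA.isHermitian
  refine ⟨U * diagonal (fun i => (Real.sqrt (l i) : ℂ)), ?_⟩
  rw [conjTranspose_mul, diagonal_conjTranspose]
  conv_lhs => rw [h.eq]
  simp only [Matrix.mul_assoc]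
  congr 1
  rw [← Matrix.mul_assoc, diagonal_mul_diagonal]
  congr 2
  funext i
  simp only [Pi.star_apply, Complex.star_def, Complex.conj_ofReal]
  rw [← Complex.ofReal_mul, Real.mul_self_sqrt (h.nonneg hA i)]

/-- `N` of a `2 × 2` Hermitian matrix in terms of any pair with the right sum and product. -/
theorem N_two {A : Matrix Bool Bool ℂ} (hA : A.IsHermitian) {μ₁ μ₂ : ℝ}
    (hs : A.trace.re = μ₁ + μ₂) (hp : A.det.re = μ₁ * μ₂) :
    N A = μ₁ * Real.log μ₁ + μ₂ * Real.log μ₂ := by
  obtain ⟨U, l, h⟩ := exists_isDiag hA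
  rw [h.trace_re, Fintype.sum_bool] at hs
  rw [h.det, Complex.ofReal_re, Fintype.prod_bool] at hp
  rw [h.N, Fintype.sum_bool]
  have : (l true - μ₁) * (l true - μ₂) = 0 := by
    have : l false = μ₁ + μ₂ - l true := by linarith
    rw [this] at hp
    linear_combination -hp
  rcases mul_eq_zero.1 this with h1 | h1
  · have e1 : l true = μ₁ := by linarith
    have e2 : l false = μ₂ := by linarith
    rw [e1, e2]
  · have e1 : l true = μ₂ := by linarith
    have e2 : l false = μ₁ := by linarith
    rw [e1, e2, add_comm]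

end Crest.Agent.Lib.QEnt
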